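import Vale.Agent.P347.Final

open Filter Topology

namespace Vale.Agent.Results.P347.Subpoly

open Vale.Agent.P347

theorem result :
    (∀ ε : ℝ, 0 < ε → ∃ d₀ : ℕ, ∀ d : ℕ, d₀ ≤ d → ∃ q : ℕ, (q : ℝ) ≤ (d : ℝ) ^ ε ∧ Solvable d q) ∧
      Tendsto (fun d : ℕ => Real.log (Q d) / Real.log d) atTop (𝓝 0) ∧
      limsup (fun d : ℕ => Real.log (Q d) / Real.log d) atTop = 0 := by
  refine ⟨main.1, Metric.tendsto_atTop.2 fun ε hε => ?_, main.2⟩
  obtain ⟨d₀, h⟩ := main.1 _ (half_pos hε)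
  refine ⟨max d₀ 2, fun d hd => ?_⟩
  obtain ⟨q, hq, hs⟩ := h d (le_trans (le_max_left _ _) hd)
  have hd2 : (2 : ℝ) ≤ d := by exact_mod_cast le_trans (le_max_right _ _) hd
  have hl : 0 < Real.log d := Real.log_pos (by linarith)
  have hQ : (Q d : ℝ) ≤ (d : ℝ) ^ (ε / 2) := by
    have : Q d ≤ q := Nat.sInf_le hs
    exact le_trans (by exact_mod_cast this) hq
  have h1 : Real.log (Q d) ≤ ε / 2 * Real.log d := by
    rcases Nat.eq_zero_or_pos (Q d) with h0 | h0
    · rw [h0, Nat.cast_zero, Real.log_zero]; positivity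
    · rw [← Real.log_rpow (by linarith)]
      exact Real.log_le_log (by exact_mod_cast h0) hQ
  rw [Real.dist_eq, sub_zero, abs_of_nonneg (div_nonneg (Real.log_natCast_nonneg _) hl.le),
    div_lt_iff₀ hl]
  nlinarith

end Vale.Agent.Results.P347.Subpoly
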